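import Mathlib

namespace Vale.Agent.Results.P079.A_RotativeMaps

open Filter Topology

/-- Auxiliary statement with an averaging parameter `t`: if `T` is `k`-Lipschitz on the closed
convex set `C`, `‖x - T (T x)‖ ≤ a * ‖x - T x‖` on `C`, and
`(1 - t) * (a + k * (1 - t)) + k * t ^ 2 < 1` for some `0 ≤ t ≤ 1`, then `T` has a fixed point
in `C`. -/
theorem fixed_of_average {X : Type*} [NormedAddCommGroup X] [NormedSpace ℝ X] [CompleteSpace X]
    (C : Set X) (hne : C.Nonempty) (hcl : IsClosed C) (hcv : Convex ℝ C)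
    (T : X → X) (hT : ∀ x ∈ C, T x ∈ C) (k a t : ℝ) (ht0 : 0 ≤ t) (ht1 : t ≤ 1)
    (hq : (1 - t) * (a + k * (1 - t)) + k * t ^ 2 < 1)
    (hlip : ∀ x ∈ C, ∀ y ∈ C, ‖T x - T y‖ ≤ k * ‖x - y‖)
    (hrot : ∀ x ∈ C, ‖x - T (T x)‖ ≤ a * ‖x - T x‖) :
    ∃ x ∈ C, T x = x := by
  obtain ⟨x0, hx0⟩ := hne
  -- degenerate cases: negative constants force every point to be fixed
  by_cases hk0 : k < 0
  · refine ⟨x0, hx0, ?_⟩
    by_contra hfix
    have h1 := hlip x0 hx0 (T x0) (hT x0 hx0)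
    have hpos : 0 < ‖x0 - T x0‖ := by
      rw [norm_pos_iff, sub_ne_zero]; exact fun h => hfix h.symm
    have h2 : k * ‖x0 - T x0‖ < 0 := mul_neg_of_neg_of_pos hk0 hpos
    have h3 := norm_nonneg (T x0 - T (T x0))
    linarith
  by_cases ha0 : a < 0
  · refine ⟨x0, hx0, ?_⟩
    by_contra hfix
    have h1 := hrot x0 hx0
    have hpos : 0 < ‖x0 - T x0‖ := by
      rw [norm_pos_iff, sub_ne_zero]; exact fun h => hfix h.symm
    have h2 : a * ‖x0 - T x0‖ < 0 := mul_neg_of_neg_of_pos ha0 hpos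
    have h3 := norm_nonneg (x0 - T (T x0))
    linarith
  push Not at hk0 ha0
  have hs0 : 0 ≤ 1 - t := by linarith
  -- the averaged map
  set g : X → X := fun x => (1 - t) • x + t • T x with hg
  have hgC : ∀ x ∈ C, g x ∈ C := fun x hx =>
    hcv hx (hT x hx) hs0 ht0 (by ring)
  set q : ℝ := (1 - t) * (a + k * (1 - t)) + k * t ^ 2 with hqdef
  have hq0 : 0 ≤ q := by
    rw [hqdef]
    have h1 : 0 ≤ (1 - t) * (a + k * (1 - t)) :=
      mul_nonneg hs0 (add_nonneg ha0 (mul_nonneg hk0 hs0))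
    have h2 : 0 ≤ k * t ^ 2 := mul_nonneg hk0 (sq_nonneg t)
    linarith
  have hq1 : q < 1 := hq
  -- key contraction of the displacement
  have hkey : ∀ x ∈ C, ‖g x - T (g x)‖ ≤ q * ‖x - T x‖ := by
    intro x hx
    have hy := hgC x hx
    have e1 : g x - T (g x) = (1 - t) • (x - T (g x)) + t • (T x - T (g x)) := by
      simp only [hg, smul_sub]
      module
    have e2 : T x - g x = (1 - t) • (T x - x) := by
      simp only [hg, smul_sub]; module
    have e3 : x - g x = t • (x - T x) := by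
      simp only [hg, smul_sub]; module
    have n2 : ‖T x - g x‖ = (1 - t) * ‖x - T x‖ := by
      rw [e2, norm_smul, Real.norm_of_nonneg hs0, norm_sub_rev]
    have n3 : ‖x - g x‖ = t * ‖x - T x‖ := by
      rw [e3, norm_smul, Real.norm_of_nonneg ht0]
    have b1 : ‖x - T (g x)‖ ≤ a * ‖x - T x‖ + k * ((1 - t) * ‖x - T x‖) := by
      calc ‖x - T (g x)‖ = ‖(x - T (T x)) + (T (T x) - T (g x))‖ := by congr 1; abel
        _ ≤ ‖x - T (T x)‖ + ‖T (T x) - T (g x)‖ := norm_add_le _ _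
        _ ≤ a * ‖x - T x‖ + k * ‖T x - g x‖ :=
            add_le_add (hrot x hx) (hlip (T x) (hT x hx) (g x) hy)
        _ = a * ‖x - T x‖ + k * ((1 - t) * ‖x - T x‖) := by rw [n2]
    have b2 : ‖T x - T (g x)‖ ≤ k * (t * ‖x - T x‖) := by
      calc ‖T x - T (g x)‖ ≤ k * ‖x - g x‖ := hlip x hx (g x) hy
        _ = k * (t * ‖x - T x‖) := by rw [n3]
    calc ‖g x - T (g x)‖ = ‖(1 - t) • (x - T (g x)) + t • (T x - T (g x))‖ := by
          rw [e1]
      _ ≤ ‖(1 - t) • (x - T (g x))‖ + ‖t • (T x - T (g x))‖ := norm_add_le _ _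
      _ = (1 - t) * ‖x - T (g x)‖ + t * ‖T x - T (g x)‖ := by
          rw [norm_smul, norm_smul, Real.norm_of_nonneg hs0, Real.norm_of_nonneg ht0]
      _ ≤ (1 - t) * (a * ‖x - T x‖ + k * ((1 - t) * ‖x - T x‖))
            + t * (k * (t * ‖x - T x‖)) :=
          add_le_add (mul_le_mul_of_nonneg_left b1 hs0) (mul_le_mul_of_nonneg_left b2 ht0)
      _ = q * ‖x - T x‖ := by rw [hqdef]; ring
  -- the iteration
  set u : ℕ → X := fun n => g^[n] x0 with hu
  have hsucc : ∀ n, u (n + 1) = g (u n) := by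
    intro n; simp only [hu, Function.iterate_succ_apply']
  have huC : ∀ n, u n ∈ C := by
    intro n
    induction n with
    | zero => simpa [hu] using hx0
    | succ n ih => rw [hsucc]; exact hgC _ ih
  set D : ℝ := ‖x0 - T x0‖ with hD
  have hdisp : ∀ n, ‖u n - T (u n)‖ ≤ q ^ n * D := by
    intro n
    induction n with
    | zero => simp [hu, hD]
    | succ n ih =>
      rw [hsucc]
      calc ‖g (u n) - T (g (u n))‖ ≤ q * ‖u n - T (u n)‖ := hkey _ (huC n)
        _ ≤ q * (q ^ n * D) := mul_le_mul_of_nonneg_left ih hq0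
        _ = q ^ (n + 1) * D := by ring
  have hstep : ∀ n, dist (u n) (u (n + 1)) ≤ D * q ^ n := by
    intro n
    rw [hsucc, dist_eq_norm]
    have e3 : u n - g (u n) = t • (u n - T (u n)) := by
      simp only [hg, smul_sub]; module
    rw [e3, norm_smul, Real.norm_of_nonneg ht0]
    have h1 := hdisp n
    have h2 : t * ‖u n - T (u n)‖ ≤ 1 * ‖u n - T (u n)‖ :=
      mul_le_mul_of_nonneg_right ht1 (norm_nonneg _)
    linarith
  have hcauchy : CauchySeq u := cauchySeq_of_le_geometric q D hq1 hstep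
  obtain ⟨xs, hxs⟩ := cauchySeq_tendsto_of_complete hcauchy
  have hxsC : xs ∈ C := hcl.mem_of_tendsto hxs (Eventually.of_forall huC)
  refine ⟨xs, hxsC, ?_⟩
  -- the limit is a fixed point
  have hbound : ∀ n, ‖xs - T xs‖ ≤ (1 + k) * dist (u n) xs + q ^ n * D := by
    intro n
    have t1 : ‖xs - T xs‖ ≤ ‖xs - u n‖ + ‖u n - T (u n)‖ + ‖T (u n) - T xs‖ := by
      calc ‖xs - T xs‖ = ‖(xs - u n) + (u n - T (u n)) + (T (u n) - T xs)‖ := by
            congr 1; abel
        _ ≤ ‖(xs - u n) + (u n - T (u n))‖ + ‖T (u n) - T xs‖ := norm_add_le _ _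
        _ ≤ ‖xs - u n‖ + ‖u n - T (u n)‖ + ‖T (u n) - T xs‖ := by
            gcongr; exact norm_add_le _ _
    have t2 := hlip (u n) (huC n) xs hxsC
    have t3 := hdisp n
    have t4 : ‖xs - u n‖ = dist (u n) xs := by rw [dist_eq_norm, norm_sub_rev]
    have t5 : ‖u n - xs‖ = dist (u n) xs := by rw [dist_eq_norm]
    rw [t5] at t2
    rw [t4] at t1
    linarith
  have hlim : Tendsto (fun n => (1 + k) * dist (u n) xs + q ^ n * D) atTop (𝓝 0) := by
    have h1 : Tendsto (fun n => dist (u n) xs) atTop (𝓝 0) :=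
      tendsto_iff_dist_tendsto_zero.1 hxs
    have h2 : Tendsto (fun n => q ^ n) atTop (𝓝 0) :=
      tendsto_pow_atTop_nhds_zero_of_lt_one hq0 hq1
    have := (h1.const_mul (1 + k)).add (h2.mul_const D)
    simpa using this
  have hle : ‖xs - T xs‖ ≤ 0 := ge_of_tendsto' hlim hbound
  have hzero : ‖xs - T xs‖ = 0 := le_antisymm hle (norm_nonneg _)
  rw [norm_eq_zero, sub_eq_zero] at hzero
  exact hzero.symm

/-- Let `C` be a nonempty closed convex subset of a real Banach space `X` (neither boundedness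
of `C` nor reflexivity of `X` is assumed) and let `T` map `C` into itself.
(1) If `T` is nonexpansive on `C` and there is `a < 2` with `‖x - T (T x)‖ ≤ a * ‖x - T x‖`
for all `x ∈ C`, then `T` has a fixed point in `C`.
(2) If `T (T x) = x` for all `x ∈ C` and `T` is `k`-Lipschitz on `C` for some `k < 2`, then `T`
has a fixed point in `C`; in particular every nonexpansive map of period two has one. -/
theorem result {X : Type*} [NormedAddCommGroup X] [NormedSpace ℝ X] [CompleteSpace X]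
    (C : Set X) (hne : C.Nonempty) (hcl : IsClosed C) (hcv : Convex ℝ C)
    (T : X → X) (hT : ∀ x ∈ C, T x ∈ C) :
    (∀ a : ℝ, a < 2 → (∀ x ∈ C, ∀ y ∈ C, ‖T x - T y‖ ≤ ‖x - y‖) →
        (∀ x ∈ C, ‖x - T (T x)‖ ≤ a * ‖x - T x‖) → ∃ x ∈ C, T x = x) ∧
    (∀ k : ℝ, k < 2 → (∀ x ∈ C, ∀ y ∈ C, ‖T x - T y‖ ≤ k * ‖x - y‖) →
        (∀ x ∈ C, T (T x) = x) → ∃ x ∈ C, T x = x) := by
  refine ⟨?_, ?_⟩
  · intro a ha hnon hrot
    -- reduce to a rotation constant in [0, 2)
    set a' : ℝ := max a 0 with ha'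
    have ha'2 : a' < 2 := max_lt ha (by norm_num)
    have ha'0 : 0 ≤ a' := le_max_right _ _
    have hrot' : ∀ x ∈ C, ‖x - T (T x)‖ ≤ a' * ‖x - T x‖ := fun x hx =>
      (hrot x hx).trans (mul_le_mul_of_nonneg_right (le_max_left _ _) (norm_nonneg _))
    refine fixed_of_average C hne hcl hcv T hT 1 a' ((a' + 2) / 4) (by linarith) (by linarith)
      ?_ (fun x hx y hy => by simpa using hnon x hx y hy) hrot'
    nlinarith
  · intro k hk hlip hinv
    refine fixed_of_average C hne hcl hcv T hT k 0 (1 / 2) (by norm_num) (by norm_num)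
      ?_ hlip (fun x hx => by rw [hinv x hx]; simp)
    nlinarith

end Vale.Agent.Results.P079.A_RotativeMaps
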